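import Vale.Agent.P207.N4.H790.ClockDef

/-!
# P207, theorem P (pointwise quarter pinching): the clock

`sg L c t x = ∫₀ᵗ c (φ_s x) ds` for a positive continuous invariant function `c`, the inverse
`tm L c S x` (the time at which the clock shows `S`), the step `stp L c S x = φ (tm S x) x`, and the
comparison of the clocks of two close orbits.
-/

open Set Filter Topology Metric MeasureTheory

noncomputable section

namespace Vale.Agent.P207.N4.Clock

variable [Dim]

variable {Γ X B : Type} [Group Γ] [MetricSpace X] [ProperSpace X] [MulAction Γ X]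
  [IsIsometricSMul Γ X] [TopologicalSpace B] [CompactSpace B] [T2Space B] [MulAction Γ B]
  [ContinuousConstSMul Γ B] (L : Leaf Γ X B)

/-- the conditions on the rate of the clock -/
structure Ok (c : X → ℝ) (c₀ c₁ : ℝ) : Prop where
  cont : Continuous c
  smul : ∀ (g : Γ) x, c (g • x) = c x
  rot : ∀ r x, c (L.rot r x) = c x
  flip : ∀ x, c (L.flip x) = c x
  pos : 0 < c₀
  lo : ∀ x, c₀ ≤ c x
  hi : ∀ x, c x ≤ c₁

variable {L} {c : X → ℝ} {c₀ c₁ : ℝ}

theorem Ok.c₁_pos (h : Ok L c c₀ c₁) : 0 < c₁ := by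
  obtain ⟨x⟩ := L.nonempty
  exact h.pos.trans_le ((h.lo x).trans (h.hi x))

theorem Ok.le (h : Ok L c c₀ c₁) : c₀ ≤ c₁ := by
  obtain ⟨x⟩ := L.nonempty
  exact (h.lo x).trans (h.hi x)

theorem orb_cont (hc : Continuous c) (x : X) : Continuous fun s => c (L.φ s x) :=
  hc.comp (L.φ_cont.comp (Continuous.prodMk continuous_id continuous_const))

theorem orb_int (hc : Continuous c) (x : X) (a b : ℝ) :
    IntervalIntegrable (fun s => c (L.φ s x)) volume a b :=
  (orb_cont hc x).intervalIntegrable a b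

@[simp] theorem sg_zero (x : X) : sg L c 0 x = 0 := by simp [sg]

theorem sg_add (hc : Continuous c) (s t : ℝ) (x : X) :
    sg L c (s + t) x = sg L c t x + sg L c s (L.φ t x) := by
  have h1 : sg L c s (L.φ t x) = ∫ r in t..(s + t), c (L.φ r x) := by
    unfold sg
    have h2 : ∀ r, c (L.φ r (L.φ t x)) = (fun u => c (L.φ u x)) (r + t) := fun r => by
      simp only [L.φ_add]
    simp only [h2]
    rw [intervalIntegral.integral_comp_add_right (fun u => c (L.φ u x))]
    simp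
  rw [h1]
  exact (intervalIntegral.integral_add_adjacent_intervals (orb_int hc x 0 t)
    (orb_int hc x t (s + t))).symm

theorem sg_neg (hc : Continuous c) (t : ℝ) (x : X) :
    sg L c (-t) x = - sg L c t (L.φ (-t) x) := by
  have h1 := sg_add (L := L) hc t (-t) x
  rw [add_neg_cancel, sg_zero] at h1
  linarith

theorem sg_sub (hc : Continuous c) (s t : ℝ) (x : X) :
    sg L c t x - sg L c s x = sg L c (t - s) (L.φ s x) := by
  have h1 := sg_add (L := L) hc (t - s) s x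
  rw [sub_add_cancel] at h1
  linarith

theorem sg_smul (h : ∀ (g : Γ) x, c (g • x) = c x) (t : ℝ) (g : Γ) (x : X) :
    sg L c t (g • x) = sg L c t x := by
  unfold sg
  simp only [L.φ_smul, h]

theorem sg_rot (h : ∀ r x, c (L.rot r x) = c x) (t : ℝ) (r : O2) (x : X) :
    sg L c t (L.rot r x) = sg L c t x := by
  unfold sg
  simp only [← L.rot_φ, h]

/-- the clock of the reversed orbit -/
theorem sg_flip (h : ∀ x, c (L.flip x) = c x) (t : ℝ) (x : X) :
    sg L c t (L.flip (L.φ t x)) = sg L c t x := by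
  unfold sg
  have h1 : ∀ s, c (L.φ s (L.flip (L.φ t x))) = (fun u => c (L.φ u x)) (t - s) := by
    intro s
    have h2 := L.flip_φ (-s) (L.φ t x)
    rw [neg_neg] at h2
    rw [← h2, h, ← L.φ_add, neg_add_eq_sub]
  simp only [h1]
  rw [intervalIntegral.integral_comp_sub_left (fun u => c (L.φ u x))]
  simp

theorem sg_flip' (h : ∀ x, c (L.flip x) = c x) (t : ℝ) (x : X) :
    sg L c t (L.flip x) = sg L c t (L.φ (-t) x) := by
  have h1 := sg_flip h t (L.φ (-t) x)
  rwa [← L.φ_add, add_neg_cancel, L.φ_zero] at h1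

theorem sg_lo (h : Ok L c c₀ c₁) {t : ℝ} (ht : 0 ≤ t) (x : X) : c₀ * t ≤ sg L c t x := by
  have h1 := intervalIntegral.integral_mono_on (μ := volume) ht
    (intervalIntegrable_const (c := c₀)) (orb_int h.cont x 0 t) fun s _ => h.lo (L.φ s x)
  simp only [intervalIntegral.integral_const, sub_zero, smul_eq_mul] at h1
  rw [mul_comm]
  exact h1

theorem sg_hi (h : Ok L c c₀ c₁) {t : ℝ} (ht : 0 ≤ t) (x : X) : sg L c t x ≤ c₁ * t := by
  have h1 := intervalIntegral.integral_mono_on (μ := volume) ht (orb_int h.cont x 0 t)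
    (intervalIntegrable_const (c := c₁)) fun s _ => h.hi (L.φ s x)
  simp only [intervalIntegral.integral_const, sub_zero, smul_eq_mul] at h1
  rw [mul_comm]
  exact h1

theorem sg_nonneg (h : Ok L c c₀ c₁) {t : ℝ} (ht : 0 ≤ t) (x : X) : 0 ≤ sg L c t x :=
  (mul_nonneg h.pos.le ht).trans (sg_lo h ht x)

theorem sg_sub_lo (h : Ok L c c₀ c₁) {s t : ℝ} (hst : s ≤ t) (x : X) :
    c₀ * (t - s) ≤ sg L c t x - sg L c s x := by
  rw [sg_sub h.cont]
  exact sg_lo h (sub_nonneg.2 hst) _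

theorem sg_sub_hi (h : Ok L c c₀ c₁) {s t : ℝ} (hst : s ≤ t) (x : X) :
    sg L c t x - sg L c s x ≤ c₁ * (t - s) := by
  rw [sg_sub h.cont]
  exact sg_hi h (sub_nonneg.2 hst) _

theorem sg_strictMono (h : Ok L c c₀ c₁) (x : X) : StrictMono fun t => sg L c t x := by
  intro s t hst
  have h1 := sg_sub_lo h hst.le x
  have h2 := mul_pos h.pos (sub_pos.2 hst)
  show sg L c s x < sg L c t x
  linarith

theorem sg_mono (h : Ok L c c₀ c₁) (x : X) : Monotone fun t => sg L c t x :=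
  (sg_strictMono h x).monotone

/-- joint continuity -/
theorem sg_cont (hc : Continuous c) : Continuous fun p : ℝ × X => sg L c p.1 p.2 := by
  have h1 : Continuous (Function.uncurry fun (x : X) (s : ℝ) => c (L.φ s x)) := by
    have : (Function.uncurry fun (x : X) (s : ℝ) => c (L.φ s x)) =
        fun q : X × ℝ => c (L.φ q.2 q.1) := rfl
    rw [this]
    exact hc.comp (L.φ_cont.comp (Continuous.prodMk continuous_snd continuous_fst))
  have h2 := intervalIntegral.continuous_parametric_primitive_of_continuous (μ := volume)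
    (a₀ := (0 : ℝ)) h1
  exact h2.comp (Continuous.prodMk continuous_snd continuous_fst)

theorem sg_cont_t (hc : Continuous c) (x : X) : Continuous fun t => sg L c t x :=
  (sg_cont hc).comp (Continuous.prodMk continuous_id continuous_const)

theorem sg_cont_x (hc : Continuous c) (t : ℝ) : Continuous fun x : X => sg L c t x :=
  (sg_cont hc).comp (Continuous.prodMk continuous_const continuous_id)

theorem exists_tm (h : Ok L c c₀ c₁) (S : ℝ) (x : X) : ∃ t, sg L c t x = S := by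
  set T : ℝ := |S| / c₀ with hT
  have hT0 : 0 ≤ T := div_nonneg (abs_nonneg _) h.pos.le
  have h1 : sg L c (-T) x ≤ S := by
    rw [sg_neg h.cont]
    have h2 := sg_lo h hT0 (L.φ (-T) x)
    have h3 : c₀ * T = |S| := by rw [hT, mul_div_cancel₀ _ h.pos.ne']
    have h4 := neg_abs_le S
    linarith
  have h2 : S ≤ sg L c T x := by
    have h3 := sg_lo h hT0 x
    have h4 : c₀ * T = |S| := by rw [hT, mul_div_cancel₀ _ h.pos.ne']
    have h5 := le_abs_self S
    linarith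
  obtain ⟨t, -, ht⟩ := intermediate_value_Icc (by linarith : -T ≤ T)
    (sg_cont_t h.cont x).continuousOn ⟨h1, h2⟩
  exact ⟨t, ht⟩

open Classical in
variable (L c) in
/-- the time at which the clock shows `S` -/
def tm (S : ℝ) (x : X) : ℝ := if h : ∃ t, sg L c t x = S then h.choose else 0

theorem sg_tm (h : Ok L c c₀ c₁) (S : ℝ) (x : X) : sg L c (tm L c S x) x = S := by
  have h1 := exists_tm h S x
  unfold tm
  rw [dif_pos h1]
  exact h1.choose_spec

theorem tm_eq (h : Ok L c c₀ c₁) {S t : ℝ} {x : X} (ht : sg L c t x = S) : tm L c S x = t :=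
  (sg_strictMono h x).injective ((sg_tm h S x).trans ht.symm)

theorem tm_sg (h : Ok L c c₀ c₁) (t : ℝ) (x : X) : tm L c (sg L c t x) x = t := tm_eq h rfl

theorem tm_zero (h : Ok L c c₀ c₁) (x : X) : tm L c 0 x = 0 := tm_eq h (sg_zero x)

theorem tm_le_iff (h : Ok L c c₀ c₁) {S t : ℝ} {x : X} : tm L c S x ≤ t ↔ S ≤ sg L c t x := by
  conv_rhs => rw [← sg_tm h S x]
  exact ((sg_strictMono h x).le_iff_le).symm

theorem le_tm_iff (h : Ok L c c₀ c₁) {S t : ℝ} {x : X} : t ≤ tm L c S x ↔ sg L c t x ≤ S := by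
  conv_rhs => rw [← sg_tm h S x]
  exact ((sg_strictMono h x).le_iff_le).symm

theorem tm_lt_iff (h : Ok L c c₀ c₁) {S t : ℝ} {x : X} : tm L c S x < t ↔ S < sg L c t x := by
  rw [← not_le, ← not_le, le_tm_iff h]

theorem lt_tm_iff (h : Ok L c c₀ c₁) {S t : ℝ} {x : X} : t < tm L c S x ↔ sg L c t x < S := by
  rw [← not_le, ← not_le, tm_le_iff h]

theorem tm_nonneg (h : Ok L c c₀ c₁) {S : ℝ} (hS : 0 ≤ S) (x : X) : 0 ≤ tm L c S x := by
  rw [le_tm_iff h, sg_zero]
  exact hS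

theorem tm_le (h : Ok L c c₀ c₁) {S : ℝ} (hS : 0 ≤ S) (x : X) : tm L c S x ≤ S / c₀ := by
  rw [tm_le_iff h]
  have h1 := sg_lo h (div_nonneg hS h.pos.le) x
  rwa [mul_div_cancel₀ _ h.pos.ne'] at h1

theorem le_tm (h : Ok L c c₀ c₁) {S : ℝ} (hS : 0 ≤ S) (x : X) : S / c₁ ≤ tm L c S x := by
  rw [le_tm_iff h]
  have h1 := sg_hi h (div_nonneg hS h.c₁_pos.le) x
  rwa [mul_div_cancel₀ _ h.c₁_pos.ne'] at h1

theorem tm_smul (h : Ok L c c₀ c₁) (S : ℝ) (g : Γ) (x : X) :
    tm L c S (g • x) = tm L c S x :=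
  tm_eq h (by rw [sg_smul h.smul, sg_tm h])

theorem tm_rot (h : Ok L c c₀ c₁) (S : ℝ) (r : O2) (x : X) :
    tm L c S (L.rot r x) = tm L c S x :=
  tm_eq h (by rw [sg_rot h.rot, sg_tm h])

theorem tm_add (h : Ok L c c₀ c₁) (S S' : ℝ) (x : X) :
    tm L c (S + S') x = tm L c S' (L.φ (tm L c S x) x) + tm L c S x :=
  tm_eq h (by rw [sg_add h.cont, sg_tm h, sg_tm h])

theorem tm_flip (h : Ok L c c₀ c₁) (S : ℝ) (x : X) :
    tm L c S (L.flip (L.φ (tm L c S x) x)) = tm L c S x :=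
  tm_eq h (by rw [sg_flip h.flip, sg_tm h])

theorem tm_cont (h : Ok L c c₀ c₁) (S : ℝ) : Continuous fun x : X => tm L c S x := by
  rw [continuous_iff_continuousAt]
  intro x
  rw [ContinuousAt, tendsto_order]
  constructor
  · intro t ht
    have h1 : sg L c t x < S := (lt_tm_iff h).1 ht
    have h2 : ∀ᶠ y in 𝓝 x, sg L c t y < S :=
      (sg_cont_x h.cont t).continuousAt.eventually_lt continuousAt_const h1
    filter_upwards [h2] with y hy
    exact (lt_tm_iff h).2 hy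
  · intro t ht
    have h1 : S < sg L c t x := (tm_lt_iff h).1 ht
    have h2 : ∀ᶠ y in 𝓝 x, S < sg L c t y :=
      continuousAt_const.eventually_lt (sg_cont_x h.cont t).continuousAt h1
    filter_upwards [h2] with y hy
    exact (tm_lt_iff h).2 hy

variable (L c) in
/-- one step of the clock -/
def stp (S : ℝ) (x : X) : X := L.φ (tm L c S x) x

theorem stp_cont (h : Ok L c c₀ c₁) (S : ℝ) : Continuous fun x : X => stp L c S x :=
  L.φ_cont.comp (Continuous.prodMk (tm_cont h S) continuous_id)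

theorem stp_zero (h : Ok L c c₀ c₁) (x : X) : stp L c 0 x = x := by
  rw [stp, tm_zero h, L.φ_zero]

theorem stp_add (h : Ok L c c₀ c₁) (S S' : ℝ) (x : X) :
    stp L c S' (stp L c S x) = stp L c (S + S') x := by
  rw [stp, stp, stp, tm_add h, L.φ_add]

theorem stp_smul (h : Ok L c c₀ c₁) (S : ℝ) (g : Γ) (x : X) :
    stp L c S (g • x) = g • stp L c S x := by
  rw [stp, stp, tm_smul h, L.φ_smul]

theorem stp_rot (h : Ok L c c₀ c₁) (S : ℝ) (r : O2) (x : X) :
    stp L c S (L.rot r x) = L.rot r (stp L c S x) := by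
  rw [stp, stp, tm_rot h, L.rot_φ]

theorem em_stp (S : ℝ) (x : X) : L.em (stp L c S x) = L.em x := L.em_φ _ _

theorem ep_stp (S : ℝ) (x : X) : L.ep (stp L c S x) = L.ep x := by
  rw [stp, L.ep_flip, L.flip_φ, L.em_φ, ← L.ep_flip]

theorem stp_flip (h : Ok L c c₀ c₁) (S : ℝ) (x : X) :
    stp L c S (L.flip (stp L c S x)) = L.flip x := by
  have h1 : stp L c S x = L.φ (tm L c S x) x := rfl
  rw [h1, stp, tm_flip h, L.flip_φ, ← L.φ_add, add_neg_cancel, L.φ_zero]

theorem stp_neg (h : Ok L c c₀ c₁) (S : ℝ) (x : X) : stp L c (-S) (stp L c S x) = x := by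
  rw [stp_add h, add_neg_cancel, stp_zero h]

theorem stp_neg' (h : Ok L c c₀ c₁) (S : ℝ) (x : X) : stp L c S (stp L c (-S) x) = x := by
  rw [stp_add h, neg_add_cancel, stp_zero h]

theorem stp_iter (h : Ok L c c₀ c₁) (S : ℝ) (n : ℕ) (x : X) :
    (stp L c S)^[n] x = stp L c (n * S) x := by
  induction n with
  | zero => simp [stp_zero h]
  | succ n ih =>
    rw [Function.iterate_succ_apply', ih, stp_add h]
    congr 1
    push_cast
    ring

/-! ### comparison of two orbits -/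

/-- `c` is uniformly continuous -/
theorem unif (h : Ok L c c₀ c₁) {η : ℝ} (hη : 0 < η) :
    ∃ δ : ℝ, 0 < δ ∧ ∀ x y : X, dist x y ≤ δ → |c x - c y| ≤ η := by
  obtain ⟨K, hK, hK'⟩ := L.cocompact
  have hK2 : IsCompact (Metric.cthickening 1 K) := hK.cthickening
  have h1 := hK2.uniformContinuousOn_of_continuous h.cont.continuousOn
  rw [Metric.uniformContinuousOn_iff_le] at h1
  obtain ⟨δ, hδ, h2⟩ := h1 η hη
  refine ⟨min δ 1, lt_min hδ one_pos, fun x y hxy => ?_⟩
  obtain ⟨g, hg⟩ := hK' x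
  have h3 : dist (g • x) (g • y) = dist x y := dist_smul _ _ _
  have h4 : g • x ∈ Metric.cthickening 1 K :=
    Metric.self_subset_cthickening K hg
  have h5 : g • y ∈ Metric.cthickening 1 K := by
    refine Metric.mem_cthickening_of_dist_le (g • y) (g • x) _ _ hg ?_
    rw [dist_comm, h3]
    exact hxy.trans (min_le_right _ _)
  have h6 := h2 (g • x) h4 (g • y) h5 (by rw [h3]; exact hxy.trans (min_le_left _ _))
  rwa [Real.dist_eq, h.smul, h.smul] at h6

theorem abs_sub_le (h : Ok L c c₀ c₁) (x y : X) : |c x - c y| ≤ c₁ - c₀ := by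
  rw [abs_le]
  constructor <;> linarith [h.lo x, h.hi x, h.lo y, h.hi y]

/-- the difference of two clocks -/
theorem sg_diff (hc : Continuous c) {η t : ℝ} (ht : 0 ≤ t) (x y : X)
    (h : ∀ s, 0 ≤ s → s ≤ t → |c (L.φ s x) - c (L.φ s y)| ≤ η) :
    |sg L c t x - sg L c t y| ≤ η * t := by
  have h1 : sg L c t x - sg L c t y = ∫ s in (0 : ℝ)..t, (c (L.φ s x) - c (L.φ s y)) := by
    unfold sg
    rw [intervalIntegral.integral_sub (orb_int hc x 0 t) (orb_int hc y 0 t)]
  rw [h1]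
  have h2 := intervalIntegral.norm_integral_le_of_norm_le_const (a := 0) (b := t) (C := η)
    (f := fun s => c (L.φ s x) - c (L.φ s y)) (fun s hs => by
      rw [uIoc_of_le ht] at hs
      exact h s hs.1.le hs.2)
  rwa [Real.norm_eq_abs, sub_zero, abs_of_nonneg ht] at h2

/-- **two orbits which stay close** -/
theorem near (h : Ok L c c₀ c₁) {η : ℝ} (hη : 0 < η) :
    ∃ δ : ℝ, 0 < δ ∧ ∀ x y : X, ∀ t : ℝ, 0 ≤ t →
      (∀ s, 0 ≤ s → s ≤ t → dist (L.φ s x) (L.φ s y) ≤ δ) →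
      |sg L c t x - sg L c t y| ≤ η * t := by
  obtain ⟨δ, hδ, h1⟩ := unif h hη
  exact ⟨δ, hδ, fun x y t ht h2 => sg_diff h.cont ht x y fun s hs hst => h1 _ _ (h2 s hs hst)⟩

/-- **two orbits which stay close, except for the time `s₀` at the beginning and the time `s₁` at
the end** -/
theorem near_mid (h : Ok L c c₀ c₁) {η : ℝ} (hη : 0 < η) :
    ∃ δ : ℝ, 0 < δ ∧ ∀ x y : X, ∀ t s₀ s₁ : ℝ, 0 ≤ t → 0 ≤ s₀ → 0 ≤ s₁ →
      (∀ s, s₀ ≤ s → s ≤ t - s₁ → dist (L.φ s x) (L.φ s y) ≤ δ) →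
      |sg L c t x - sg L c t y| ≤ η * t + (c₁ - c₀) * (s₀ + s₁) := by
  obtain ⟨δ, hδ, h1⟩ := near h hη
  refine ⟨δ, hδ, fun x y t s₀ s₁ ht h0 h1' h2 => ?_⟩
  have hd : 0 ≤ c₁ - c₀ := sub_nonneg.2 h.le
  by_cases hc : s₀ + s₁ ≤ t
  · have e1 : ∀ z : X, sg L c t z = sg L c s₀ z + sg L c (t - s₁ - s₀) (L.φ s₀ z) +
        sg L c s₁ (L.φ (t - s₁) z) := by
      intro z
      have k1 := sg_add (L := L) h.cont s₁ (t - s₁) z
      have k2 := sg_add (L := L) h.cont (t - s₁ - s₀) s₀ z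
      rw [show s₁ + (t - s₁) = t by ring] at k1
      rw [show t - s₁ - s₀ + s₀ = t - s₁ by ring] at k2
      rw [k1, k2]
    have a1 := sg_diff (L := L) h.cont h0 x y fun s _ _ => abs_sub_le h _ _
    have a2 := sg_diff (L := L) h.cont h1' (L.φ (t - s₁) x) (L.φ (t - s₁) y)
      fun s _ _ => abs_sub_le h _ _
    have a3 := h1 (L.φ s₀ x) (L.φ s₀ y) (t - s₁ - s₀) (by linarith) fun s hs hs' => by
      rw [← L.φ_add, ← L.φ_add]
      exact h2 (s + s₀) (by linarith) (by linarith)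
    rw [e1 x, e1 y]
    have a4 : η * (t - s₁ - s₀) ≤ η * t := mul_le_mul_of_nonneg_left (by linarith) hη.le
    rw [abs_le] at a1 a2 a3 ⊢
    constructor <;> nlinarith
  · have a1 := sg_diff (L := L) h.cont ht x y fun s _ _ => abs_sub_le h _ _
    push Not at hc
    have a2 : (c₁ - c₀) * t ≤ (c₁ - c₀) * (s₀ + s₁) := mul_le_mul_of_nonneg_left hc.le hd
    have a3 : 0 ≤ η * t := mul_nonneg hη.le ht
    linarith

/-- **exponentially close orbits, in the future** -/
theorem near_fut (h : Ok L c c₀ c₁) {η χ : ℝ} (hη : 0 < η) (hχ : 0 < χ) (K : ℝ) :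
    ∃ C : ℝ, 0 ≤ C ∧ ∀ x y : X, ∀ t : ℝ, 0 ≤ t →
      (∀ s, 0 ≤ s → s ≤ t → dist (L.φ s x) (L.φ s y) ≤ K * Real.exp (-χ * s)) →
      |sg L c t x - sg L c t y| ≤ η * t + C := by
  obtain ⟨δ, hδ, h1⟩ := near_mid h hη
  obtain ⟨s₀, h0, h2⟩ : ∃ s₀ : ℝ, 0 ≤ s₀ ∧ ∀ s, s₀ ≤ s → K * Real.exp (-χ * s) ≤ δ := by
    have h3 : Tendsto (fun s : ℝ => K * Real.exp (-χ * s)) atTop (𝓝 (K * 0)) := by
      refine Tendsto.const_mul K ?_
      have h4 : Tendsto (fun s : ℝ => -(χ * s)) atTop atBot :=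
        tendsto_neg_atTop_atBot.comp (tendsto_id.const_mul_atTop hχ)
      refine (Real.tendsto_exp_atBot.comp h4).congr fun s => ?_
      simp [Function.comp]
    rw [mul_zero] at h3
    obtain ⟨s₀, h4⟩ := eventually_atTop.1 (h3.eventually_le_const hδ)
    exact ⟨max s₀ 0, le_max_right _ _, fun s hs => h4 s ((le_max_left _ _).trans hs)⟩
  refine ⟨(c₁ - c₀) * s₀, mul_nonneg (sub_nonneg.2 h.le) h0, fun x y t ht h3 => ?_⟩
  have h4 := h1 x y t s₀ 0 ht h0 le_rfl fun s hs hs' =>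
    (h3 s (h0.trans hs) (by linarith)).trans (h2 s hs)
  rwa [add_zero] at h4

/-- **exponentially close orbits, in the past** -/
theorem near_past (h : Ok L c c₀ c₁) {η χ : ℝ} (hη : 0 < η) (hχ : 0 < χ) (K : ℝ) :
    ∃ C : ℝ, 0 ≤ C ∧ ∀ x y : X, ∀ t : ℝ, 0 ≤ t →
      (∀ s, 0 ≤ s → s ≤ t → dist (L.φ s x) (L.φ s y) ≤ K * Real.exp (-χ * (t - s))) →
      |sg L c t x - sg L c t y| ≤ η * t + C := by
  obtain ⟨δ, hδ, h1⟩ := near_mid h hη
  obtain ⟨s₀, h0, h2⟩ : ∃ s₀ : ℝ, 0 ≤ s₀ ∧ ∀ s, s₀ ≤ s → K * Real.exp (-χ * s) ≤ δ := by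
    have h3 : Tendsto (fun s : ℝ => K * Real.exp (-χ * s)) atTop (𝓝 (K * 0)) := by
      refine Tendsto.const_mul K ?_
      have h4 : Tendsto (fun s : ℝ => -(χ * s)) atTop atBot :=
        tendsto_neg_atTop_atBot.comp (tendsto_id.const_mul_atTop hχ)
      refine (Real.tendsto_exp_atBot.comp h4).congr fun s => ?_
      simp [Function.comp]
    rw [mul_zero] at h3
    obtain ⟨s₀, h4⟩ := eventually_atTop.1 (h3.eventually_le_const hδ)
    exact ⟨max s₀ 0, le_max_right _ _, fun s hs => h4 s ((le_max_left _ _).trans hs)⟩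
  refine ⟨(c₁ - c₀) * s₀, mul_nonneg (sub_nonneg.2 h.le) h0, fun x y t ht h3 => ?_⟩
  have h4 := h1 x y t 0 s₀ ht le_rfl h0 fun s hs hs' =>
    (h3 s hs (by linarith)).trans (h2 (t - s) (by linarith))
  rwa [zero_add] at h4

/-- `η t` is absorbed by the clock -/
theorem absorb (h : Ok L c c₀ c₁) {η t : ℝ} (hη : 0 ≤ η) (ht : 0 ≤ t) (x : X) :
    η * t ≤ η / c₀ * sg L c t x := by
  have h1 := sg_lo h ht x
  have h2 : t ≤ sg L c t x / c₀ := by
    rw [le_div_iff₀ h.pos, mul_comm]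
    exact h1
  calc η * t ≤ η * (sg L c t x / c₀) := mul_le_mul_of_nonneg_left h2 hη
    _ = η / c₀ * sg L c t x := by ring

end Vale.Agent.P207.N4.Clock
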